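import Vale.Agent.Lib.P062.Defs

namespace Vale.Agent.Lib.P062

open Finset

variable {α : Type} [DecidableEq α]

/-- A Breaker win (explicit strategy) excludes a Maker win (inductive notion). -/
theorem BreakerWins.not_makerWins {Bd : Set α} {W : Set (Finset α)} (h : BreakerWins Bd W) :
    ¬ MakerWins Bd W := by
  obtain ⟨σ, hσ⟩ := h
  have key : ∀ (M B : Finset α), MakerWinsFrom Bd W M B →
      ∀ (m b : ℕ → α) (N : ℕ),
      (∀ n < N, m n ∈ Bd ∧ m n ∉ (range n).image m ∧ m n ∉ (range n).image b) →
      (∀ n < N, b n = σ ((range n).image m) ((range n).image b) (m n)) →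
      M = (range N).image m → B = (range N).image b → False := by
    intro M B hw
    induction hw with
    | win M B c hc hcM hcB hA =>
      intro m b N hm hb hM hB
      set m' : ℕ → α := fun n => if n = N then c else m n with hm'
      set b' : ℕ → α := fun n => if n = N then σ M B c else b n with hb'
      have em : ∀ n ≤ N, (range n).image m' = (range n).image m := by
        intro n hn
        apply Finset.image_congr
        intro i hi
        have : i < n := by simpa using hi
        simp only [hm']
        rw [if_neg (by omega)]
      have eb : ∀ n ≤ N, (range n).image b' = (range n).image b := by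
        intro n hn
        apply Finset.image_congr
        intro i hi
        have : i < n := by simpa using hi
        simp only [hb']
        rw [if_neg (by omega)]
      have h1 : ∀ n < N + 1, m' n ∈ Bd ∧ m' n ∉ (range n).image m' ∧ m' n ∉ (range n).image b' := by
        intro n hn
        rw [em n (by omega), eb n (by omega)]
        rcases Nat.lt_succ_iff_lt_or_eq.1 hn with h | h
        · simp only [hm']; rw [if_neg (by omega)]; exact hm n h
        · subst h; simp only [hm', if_true]; rw [← hM, ← hB]; exact ⟨hc, hcM, hcB⟩
      have h2 : ∀ n < N + 1, b' n = σ ((range n).image m') ((range n).image b') (m' n) := by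
        intro n hn
        rw [em n (by omega), eb n (by omega)]
        rcases Nat.lt_succ_iff_lt_or_eq.1 hn with h | h
        · simp only [hm', hb']; rw [if_neg (by omega), if_neg (by omega)]; exact hb n h
        · subst h; simp only [hm', hb', if_true]; rw [← hM, ← hB]
      obtain ⟨A, hAW, hAs⟩ := hA
      apply (hσ m' b' (N + 1) h1 h2).2 A hAW
      rw [Finset.range_add_one, Finset.image_insert, em N le_rfl, ← hM]
      simpa [hm'] using hAs
    | step M B c hc hcM hcB _ ih =>
      intro m b N hm hb hM hB
      set m' : ℕ → α := fun n => if n = N then c else m n with hm'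
      set b' : ℕ → α := fun n => if n = N then σ M B c else b n with hb'
      have em : ∀ n ≤ N, (range n).image m' = (range n).image m := by
        intro n hn
        apply Finset.image_congr
        intro i hi
        have : i < n := by simpa using hi
        simp only [hm']
        rw [if_neg (by omega)]
      have eb : ∀ n ≤ N, (range n).image b' = (range n).image b := by
        intro n hn
        apply Finset.image_congr
        intro i hi
        have : i < n := by simpa using hi
        simp only [hb']
        rw [if_neg (by omega)]
      have h1 : ∀ n < N + 1, m' n ∈ Bd ∧ m' n ∉ (range n).image m' ∧ m' n ∉ (range n).image b' := by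
        intro n hn
        rw [em n (by omega), eb n (by omega)]
        rcases Nat.lt_succ_iff_lt_or_eq.1 hn with h | h
        · simp only [hm']; rw [if_neg (by omega)]; exact hm n h
        · subst h; simp only [hm', if_true]; rw [← hM, ← hB]; exact ⟨hc, hcM, hcB⟩
      have h2 : ∀ n < N + 1, b' n = σ ((range n).image m') ((range n).image b') (m' n) := by
        intro n hn
        rw [em n (by omega), eb n (by omega)]
        rcases Nat.lt_succ_iff_lt_or_eq.1 hn with h | h
        · simp only [hm', hb']; rw [if_neg (by omega), if_neg (by omega)]; exact hb n h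
        · subst h; simp only [hm', hb', if_true]; rw [← hM, ← hB]
      have h3 := (hσ m' b' (N + 1) h1 h2).1 N (by omega)
      have eM : (range (N + 1)).image m' = insert c M := by
        rw [Finset.range_add_one, Finset.image_insert, em N le_rfl, ← hM]
        simp [hm']
      have eB : (range (N + 1)).image b' = insert (σ M B c) B := by
        rw [Finset.range_add_one, Finset.image_insert, eb N le_rfl, ← hB]
        simp [hb']
      have ebN : b' N = σ M B c := by simp [hb']
      rw [eM, eb N le_rfl, ← hB, ebN] at h3
      exact ih (σ M B c) h3.1 h3.2.1 h3.2.2 m' b' (N + 1) h1 h2 eM.symm eB.symm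
  intro hw
  have hne : Nonempty α := by
    rcases hw with ⟨_, _, c, _⟩ | ⟨_, _, c, _⟩ <;> exact ⟨c⟩
  obtain ⟨c⟩ := hne
  exact key ∅ ∅ hw (fun _ => c) (fun _ => c) 0 (by intro n hn; omega) (by intro n hn; omega)
    (by simp) (by simp)

/-- Pairing strategies. -/
theorem breakerWins_of_pairing {Bd : Set α} {W : Set (Finset α)} (partner : α → α)
    (hinv : ∀ c, partner (partner c) = c) (hne : ∀ c, partner c ≠ c)
    (hBd : ∀ c ∈ Bd, partner c ∈ Bd)
    (hW : ∀ A ∈ W, (∀ c ∈ A, c ∈ Bd) → ∃ c ∈ A, partner c ∈ A) : BreakerWins Bd W := by
  refine ⟨fun _ _ c => partner c, ?_⟩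
  intro m b N hm hb
  replace hb : ∀ n < N, b n = partner (m n) := hb
  have hinj : ∀ x y, partner x = partner y → x = y := by
    intro x y h
    rw [← hinv x, h, hinv]
  have clash : ∀ i < N, ∀ j < N, partner (m i) ≠ m j := by
    intro i hi j hj he
    rcases lt_trichotomy i j with h | h | h
    · apply (hm j hj).2.2
      rw [Finset.mem_image]
      exact ⟨i, by simpa using h, by rw [hb i hi, he]⟩
    · subst h; exact hne _ he
    · apply (hm i hi).2.2
      rw [Finset.mem_image]
      refine ⟨j, by simpa using h, ?_⟩
      rw [hb j hj, ← he, hinv]
  refine ⟨?_, ?_⟩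
  · intro n hn
    rw [hb n hn]
    refine ⟨hBd _ (hm n hn).1, ?_, ?_⟩
    · intro hmem
      rw [Finset.mem_image] at hmem
      obtain ⟨i, hi, he⟩ := hmem
      have hi' : i < n + 1 := by simpa using hi
      exact clash n hn i (by omega) he.symm
    · intro hmem
      rw [Finset.mem_image] at hmem
      obtain ⟨i, hi, he⟩ := hmem
      have hi' : i < n := by simpa using hi
      rw [hb i (by omega)] at he
      apply (hm n hn).2.1
      rw [Finset.mem_image]
      exact ⟨i, hi, hinj _ _ he⟩
  · intro A hA hsub
    have hAB : ∀ c ∈ A, c ∈ Bd := by
      intro c hc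
      have := hsub hc
      rw [Finset.mem_image] at this
      obtain ⟨i, hi, rfl⟩ := this
      exact (hm i (by simpa using hi)).1
    obtain ⟨c, hc, hpc⟩ := hW A hA hAB
    have h1 := hsub hc
    have h2 := hsub hpc
    rw [Finset.mem_image] at h1 h2
    obtain ⟨i, hi, rfl⟩ := h1
    obtain ⟨j, hj, hj2⟩ := h2
    exact clash i (by simpa using hi) j (by simpa using hj) hj2.symm

end Vale.Agent.Lib.P062
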