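import Mathlib

namespace Vale.Agent.Lib.P062

open Finset

/-- Cells of the square grid. -/
abbrev Cell := ℤ × ℤ

/-- The hexomino Snaky. -/
def snaky : Finset Cell := {(0, 0), (1, 0), (2, 0), (3, 0), (3, 1), (4, 1)}

/-- Action of the eight signed permutation matrices (`a, b = ±1`, `sw` swaps the coordinates). -/
def act (sw : Bool) (a b : ℤ) (c : Cell) : Cell :=
  if sw then (a * c.2, b * c.1) else (a * c.1, b * c.2)

/-- `A` is an allowed copy of Snaky: `A = t + R(S)` with `R` a signed permutation matrix. -/
def IsCopy (A : Finset Cell) : Prop :=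
  ∃ (sw : Bool) (a b : ℤ) (t : Cell), (a = 1 ∨ a = -1) ∧ (b = 1 ∨ b = -1) ∧
    A = snaky.image (fun c => t + act sw a b c)

/-- Maker (to move) can force a win from the position in which Maker owns `M` and Breaker owns
`B`, on the board `Bd`, for the family `W` of winning sets: Maker has a legal move `c` which either
completes a winning set or after which every legal Breaker reply `d` leads to a position from
which Maker can force a win.  (Inductive, so every play ends after finitely many turns.) -/
inductive MakerWinsFrom {α : Type} [DecidableEq α] (Bd : Set α) (W : Set (Finset α)) :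
    Finset α → Finset α → Prop
  | win (M B : Finset α) (c : α) : c ∈ Bd → c ∉ M → c ∉ B →
      (∃ A ∈ W, A ⊆ insert c M) → MakerWinsFrom Bd W M B
  | step (M B : Finset α) (c : α) : c ∈ Bd → c ∉ M → c ∉ B →
      (∀ d ∈ Bd, d ∉ insert c M → d ∉ B → MakerWinsFrom Bd W (insert c M) (insert d B)) →
      MakerWinsFrom Bd W M B

/-- Maker, moving first on the empty board, has a winning strategy. -/
def MakerWins {α : Type} [DecidableEq α] (Bd : Set α) (W : Set (Finset α)) : Prop :=
  MakerWinsFrom Bd W ∅ ∅

/-- Breaker has a strategy `σ` (a function of Maker's cells, Breaker's cells and Maker's newest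
cell) such that in every finite play `m 0, b 0, m 1, b 1, ...` in which Maker moves legally and
Breaker follows `σ`, all Breaker moves are legal and Maker never owns a winning set. -/
def BreakerWins {α : Type} [DecidableEq α] (Bd : Set α) (W : Set (Finset α)) : Prop :=
  ∃ σ : Finset α → Finset α → α → α,
    ∀ (m b : ℕ → α) (N : ℕ),
      (∀ n < N, m n ∈ Bd ∧ m n ∉ (range n).image m ∧ m n ∉ (range n).image b) →
      (∀ n < N, b n = σ ((range n).image m) ((range n).image b) (m n)) →
      (∀ n < N, b n ∈ Bd ∧ b n ∉ (range (n + 1)).image m ∧ b n ∉ (range n).image b) ∧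
      ∀ A ∈ W, ¬ A ⊆ (range N).image m

/-- The family of allowed copies of Snaky. -/
def copies : Set (Finset Cell) := {A | IsCopy A}

/-- The horizontal strip of height `h`: cells `(x, y)` with `0 ≤ y < h`. -/
def strip (h : ℤ) : Set Cell := {c | 0 ≤ c.2 ∧ c.2 < h}

end Vale.Agent.Lib.P062
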