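import Vale.Agent.Lib.P062.Basic

namespace Vale.Agent.Lib.P062

open Finset

/-- A perfect pairing of the cells, periodic with period 4 in `x`. -/
def partner5 (c : Cell) : Cell :=
  if c.1 % 4 = 0 then (c.1 + 1, c.2)
  else if c.1 % 4 = 1 then (c.1 - 1, c.2)
  else if c.2 = 0 then (c.1, 1)
  else if c.2 = 1 then (c.1, 0)
  else if c.2 = 3 then (c.1, 4)
  else if c.2 = 4 then (c.1, 3)
  else if c.1 % 4 = 2 then (c.1 + 1, c.2)
  else (c.1 - 1, c.2)

lemma partner5_ne (c : Cell) : partner5 c ≠ c := by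
  obtain ⟨x, y⟩ := c
  simp only [partner5]
  split_ifs <;> simp only [ne_eq, Prod.mk.injEq, not_and] <;> omega

lemma partner5_inv (c : Cell) : partner5 (partner5 c) = c := by
  obtain ⟨x, y⟩ := c
  have hx : x % 4 = 0 ∨ x % 4 = 1 ∨ x % 4 = 2 ∨ x % 4 = 3 := by omega
  rcases hx with h | h | h | h
  · have h1 : (x + 1) % 4 = 1 := by omega
    simp [partner5, h, h1]
  · have h1 : (x - 1) % 4 = 0 := by omega
    simp [partner5, h, h1]
  · have h1 : (x + 1) % 4 = 3 := by omega
    by_cases y0 : y = 0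
    · simp [partner5, h, y0]
    by_cases y1 : y = 1
    · simp [partner5, h, y1]
    by_cases y3 : y = 3
    · simp [partner5, h, y3]
    by_cases y4 : y = 4
    · simp [partner5, h, y4]
    simp [partner5, h, h1, y0, y1, y3, y4]
  · have h1 : (x - 1) % 4 = 2 := by omega
    by_cases y0 : y = 0
    · simp [partner5, h, y0]
    by_cases y1 : y = 1
    · simp [partner5, h, y1]
    by_cases y3 : y = 3
    · simp [partner5, h, y3]
    by_cases y4 : y = 4
    · simp [partner5, h, y4]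
    simp [partner5, h, h1, y0, y1, y3, y4]

lemma partner5_strip (c : Cell) (hc : c ∈ strip 5) : partner5 c ∈ strip 5 := by
  obtain ⟨x, y⟩ := c
  simp only [strip, Set.mem_ofPred_eq] at hc ⊢
  simp only [partner5]
  split_ifs <;> simp only <;> omega

lemma partner5_shift (c : Cell) (q : ℤ) : partner5 (c + (4 * q, 0)) = partner5 c + (4 * q, 0) := by
  obtain ⟨x, y⟩ := c
  have h1 : (x + 4 * q) % 4 = x % 4 := by omega
  simp only [partner5, Prod.mk_add_mk, add_zero, h1]
  split_ifs <;> simp <;> ring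

lemma fin_check5 : ∀ sw : Bool, ∀ a ∈ ({1, -1} : Finset ℤ), ∀ b ∈ ({1, -1} : Finset ℤ),
    ∀ r ∈ Finset.Ico (0 : ℤ) 4, ∀ ty ∈ Finset.Ico (0 : ℤ) 5,
    (∀ c ∈ snaky, 0 ≤ ((r, ty) + act sw a b c).2 ∧ ((r, ty) + act sw a b c).2 < 5) →
    ∃ c ∈ snaky, ∃ c' ∈ snaky, partner5 ((r, ty) + act sw a b c) = (r, ty) + act sw a b c' := by
  decide

theorem strip5_breaker : BreakerWins (strip 5) copies := by
  apply breakerWins_of_pairing partner5 partner5_inv partner5_ne partner5_strip
  rintro A ⟨sw, a, b, ⟨tx, ty⟩, ha, hb, rfl⟩ hA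
  have hmem : ∀ c ∈ snaky, (tx, ty) + act sw a b c ∈ strip 5 := by
    intro c hc
    exact hA _ (Finset.mem_image_of_mem _ hc)
  have hty : 0 ≤ ty ∧ ty < 5 := by
    have := hmem (0, 0) (by decide)
    simpa [strip, act] using this
  obtain ⟨q, r, hr0, hr4, rfl⟩ : ∃ q r : ℤ, 0 ≤ r ∧ r < 4 ∧ tx = r + 4 * q :=
    ⟨tx / 4, tx % 4, by omega, by omega, by omega⟩
  have hsplit : ∀ c : Cell, ((r + 4 * q, ty) : Cell) + c = ((r, ty) + c) + (4 * q, 0) := by
    intro c
    obtain ⟨x, y⟩ := c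
    simp only [Prod.mk_add_mk, Prod.mk.injEq]
    constructor <;> ring
  obtain ⟨c, hc, c', hc', he⟩ := fin_check5 sw a (by rcases ha with h | h <;> simp [h])
    b (by rcases hb with h | h <;> simp [h]) r (by simp [hr0, hr4]) ty (by simp [hty.1, hty.2])
    (by
      intro c hc
      have := hmem c hc
      rw [hsplit] at this
      simpa [strip] using this)
  refine ⟨_, Finset.mem_image_of_mem _ hc, ?_⟩
  rw [Finset.mem_image]
  refine ⟨c', hc', ?_⟩
  rw [hsplit, hsplit, partner5_shift, he]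

end Vale.Agent.Lib.P062
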